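import Crest.Agent.Lib.Saxl.TableData.Seeds
import Crest.Agent.Lib.Saxl.N75Exc
import Crest.Agent.Lib.Saxl.N71Final

/-!
# A universal shape of size `75` (row 195, S0298): hooks `[25, 21, 15, 9, 5]`, with the exceptions of
`N75Exc`
-/

set_option autoImplicit false
set_option maxRecDepth 100000

namespace Crest.Agent.Saxl.Table.Data

open Crest.Agent.Saxl Crest.Agent.Saxl.Family Crest.Agent.Saxl.Table

theorem ub15 : UL N71.base15 := ⟨N71.good_base15, N71.universal15⟩

theorem U75 : UL N75.l75 :=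
  UL.stepAll ub15 true (one := false) (n := 75) (c := 13)
    (rules := [.dom [10,20,27,33,39,45,51,55,59,63,67,71,74,75],
    .s2 3 5 [10,17,23,29,35,41,45,49,53,57,61,64,65],
    .s1 3 5 [10,17,23,29,35,41,45,49,53,57,61,64,65],
    .st [3,5] [5,3] 10 [10,17,23,29,35,39,43,47,51,55,58,59],
    .st [3] [5] 8 [10,17,23,29,35,41,45,49,53,57,61,64,65],
    .st [3,5,6] [5,3,2] 10 [10,17,23,29,35,39,43,47,51,54,55]])
    (exc := N75.exc75) (fuel := 20) (by simp) (fun ν h1 h2 => N75.hE75 ν h1 h2)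
    (by decide +kernel) (by decide +kernel)

theorem hT75 : ∃ μ : YoungDiagram, μ.cells.card = 75 ∧ Saxl.Universal μ.cells 75 :=
  U75.diagram (by decide +kernel)

end Crest.Agent.Saxl.Table.Data
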