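import Crest.Agent.Lib.Saxl.TableData.All
import Crest.Agent.Lib.Saxl.TableData.N75

/-!
# The table, with the sizes `71`, `75` and `133` (row 195, S0298)
-/

set_option autoImplicit false

namespace Crest.Agent.Saxl.Table.Data

open Crest.Agent.Saxl Crest.Agent.Saxl.Family

/-- **The table**: only the size `52` remains. -/
theorem hT_all (h52 : HasUni 52) (n : ℕ) (h30 : 30 ≤ n) (hE : ExcN n) : HasUni n :=
  hT_table h52 N71.hT71 hT75 N71.hT133 n h30 hE

end Crest.Agent.Saxl.Table.Data
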