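import Crest.Agent.Lib.Saxl.TableCheck
import Crest.Agent.Lib.Saxl.Bases.All
import Crest.Agent.Lib.Saxl.KronX16
import Crest.Agent.Lib.Saxl.Bases.S_5_5_4_4_2
import Crest.Agent.Lib.Saxl.Bases.S_6_6_4_3_2_2
import Crest.Agent.Lib.Saxl.Bases.S_7_6_4_4_2_2_1

/-!
# The seeds of the table of the universal shapes of the family (row 195, S0298)
-/

set_option autoImplicit false

namespace Crest.Agent.Saxl.Table

open Crest.Agent.Saxl Crest.Agent.Saxl.Family

/-- A level with the one-hook rule and exceptions. -/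
theorem UL.stepX {l l₁ : List BK} (h : UL l) (d : Bool) (h₁ : UL l₁)
    (hmid : midL d l = cellsL l₁) (hs : szL l₁ = cOf d l - 2 + (cOf d l - 3) + szL l)
    (n c : ℕ) (rules : List Rule) (exc : List (List ℕ)) (fuel : ℕ)
    (hE : ∀ ν : YoungDiagram, ν.card = n → rowsL ν ∈ exc → LabelOcc (cellsL (stepL d l)) n ν)
    (hc : cOf d l = c) (hC : levelCheck (stepL d l) n c true rules exc fuel = true) :
    UL (stepL d l) :=
  h.stepAll d (fun _ => by rw [hmid, ← hs]; exact h₁.uni) hE hc hC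

/-- A level with the one-hook rule. -/
theorem UL.stepOne {l l₁ : List BK} (h : UL l) (d : Bool) (h₁ : UL l₁)
    (hmid : midL d l = cellsL l₁) (hs : szL l₁ = cOf d l - 2 + (cOf d l - 3) + szL l)
    (n c : ℕ) (rules : List Rule) (fuel : ℕ)
    (hc : cOf d l = c) (hC : levelCheck (stepL d l) n c true rules [] fuel = true) :
    UL (stepL d l) :=
  h.stepX d h₁ hmid hs n c rules [] fuel (by simp) hc hC

namespace Data

/-- The sixteen bases. -/
theorem ub (i j : ℕ) (hi : i < 4) (hj : j < 4) : UL (baseL i j) :=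
  ⟨good_baseL hi hj, by
    have h := Kron.hbase i j hi hj
    rwa [card_cellsL] at h⟩

/-- The block list of `[11 5]`. -/
def l11_5 : List BK := [BK.single 6, BK.single 4, BK.dbl 2, BK.dbl 1]

theorem u11_5 : UL l11_5 := by
  refine ⟨good_of_check _ (by decide) (by decide) (by decide) (by decide)
    (by simp [l11_5, Nondeg]) (by simp [l11_5, BK.hi, twidth, BK.width])
    (by simp [l11_5, BK.hi, BK.lo]), ?_⟩
  obtain ⟨h1, h2⟩ := Kron.uni_6_4_2_2_1_1
  have e : (YoungDiagram.ofRowLens [6, 4, 2, 2, 1, 1] h1).cells = cellsL l11_5 := by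
    show YoungDiagram.cellsOfRowLens [6, 4, 2, 2, 1, 1] = cellsL l11_5
    decide +kernel
  have h3 : Saxl.Universal (cellsL l11_5) (cellsL l11_5).card := by
    intro S _ _ hS V _ _ _ ρ hρ
    have := h2 S hS V ρ hρ
    rwa [show (YoungDiagram.ofRowLens [6, 4, 2, 2, 1, 1] h1).cells = cellsL l11_5 from e] at this
  rwa [card_cellsL] at h3

theorem u9_7_3_1 : UL Kron.S_5_5_4_4_2.l :=
  ⟨Kron.S_5_5_4_4_2.good, Kron.S_5_5_4_4_2.universal⟩

theorem u11_9_3 : UL Kron.S_6_6_4_3_2_2.l :=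
  ⟨Kron.S_6_6_4_3_2_2.good, Kron.S_6_6_4_3_2_2.universal⟩

theorem u13_9_3_1 : UL Kron.S_7_6_4_4_2_2_1.l :=
  ⟨Kron.S_7_6_4_4_2_2_1.good, Kron.S_7_6_4_4_2_2_1.universal⟩

end Data

end Crest.Agent.Saxl.Table
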